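import Mathlib

/-! Packing dimension, the space of affine lines, sticky Kakeya sets. -/

namespace Vale.Agent.P127

open scoped RealInnerProductSpace ENNReal NNReal

/-- packing premeasure: disjoint closed balls of radius at most `δ` centred in `A` -/
noncomputable def packPre {X : Type} [MetricSpace X] (s : ℝ) (A : Set X) : ℝ≥0∞ :=
  ⨅ (δ : ℝ) (_ : 0 < δ), ⨆ (B : Finset (X × ℝ))
    (_ : (∀ b ∈ B, b.1 ∈ A ∧ 0 < b.2 ∧ b.2 ≤ δ) ∧ (B : Set (X × ℝ)).Pairwise fun b b' =>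
      Disjoint (Metric.closedBall b.1 b.2) (Metric.closedBall b'.1 b'.2)),
    ∑ b ∈ B, ENNReal.ofReal ((2 * b.2) ^ s)

/-- packing measure -/
noncomputable def packMeas {X : Type} [MetricSpace X] (s : ℝ) (A : Set X) : ℝ≥0∞ :=
  ⨅ (U : ℕ → Set X) (_ : A ⊆ ⋃ i, U i), ∑' i, packPre s (U i)

/-- packing dimension -/
noncomputable def packDim {X : Type} [MetricSpace X] (A : Set X) : ℝ≥0∞ :=
  ⨅ (s : ℝ≥0) (_ : packMeas s A = 0), (s : ℝ≥0∞)

/-- affine lines of `ℝ^n`: the orthogonal projection onto the direction and the point of the line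
closest to the origin -/
abbrev AffLine (n : ℕ) : Type :=
  {q : (EuclideanSpace ℝ (Fin n) →L[ℝ] EuclideanSpace ℝ (Fin n)) × EuclideanSpace ℝ (Fin n) //
    ∃ e : EuclideanSpace ℝ (Fin n), ‖e‖ = 1 ∧ (∀ x, q.1 x = ⟪e, x⟫ • e) ∧ ⟪e, q.2⟫ = 0}

/-- `K` contains a unit segment of some line of the family in every direction -/
def Kakeya {n : ℕ} (K : Set (EuclideanSpace ℝ (Fin n))) (Λ : Set (AffLine n)) : Prop :=
  ∀ e : EuclideanSpace ℝ (Fin n), ‖e‖ = 1 → ∃ ℓ ∈ Λ, ∃ a : EuclideanSpace ℝ (Fin n),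
    (∀ x, ℓ.1.1 x = ⟪e, x⟫ • e) ∧ a - ⟪e, a⟫ • e = ℓ.1.2 ∧ ∀ t ∈ Set.Icc (0 : ℝ) 1, a + t • e ∈ K

end Vale.Agent.P127
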